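import Vale.Agent.P062.DefsD
import Vale.Agent.P062.StrongFinal

/-! P062, question Q1, strong form: there is one number `N` such that on the initially empty board
`ℤ^d`, for every `d ≥ 2` (so in particular for the plane), Maker wins the Snaky achievement game
within `N` moves, and Breaker has no preventing strategy. -/

namespace Vale.Agent.Results.P062.BoundedAllDims

open Vale.Agent.P062

theorem result : ∃ N : ℕ, ∀ d : ℕ, 2 ≤ d → MakerWinsWithin d N ∧ ¬ BreakerPrevents d :=
  maker_wins_all

end Vale.Agent.Results.P062.BoundedAllDims
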