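import Vale.Agent.P062.Defs
import Vale.Agent.P062.Final

/-! P062, question Q1: Maker wins the achievement game for Snaky on the initially empty board
`ℤ²`, without handicap. The proof is a certificate of 9551 local facts checked by the kernel. -/

namespace Vale.Agent.Results.P062.SnakyMakerWins

open Vale.Agent.P062

theorem result : MakerHasWinningStrategy := maker_wins

end Vale.Agent.Results.P062.SnakyMakerWins
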